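import Vale.Agent.P159.T1.H565.Lim2
import Vale.Agent.P159.T1.H934.Cosh

/-!
The limit `m → ∞` with an observable of exponential growth (tilted sums).
-/

open Filter Topology

namespace Vale.Agent.P159.T1.H669

open Vale.Agent.P159.H353 Vale.Agent.P159.T1.H254
open Vale.Agent.P159.T1.H857 (wS summable_wS wS_nonneg)

section

variable {V E : Type} [Fintype V] [DecidableEq V] [Fintype E] [DecidableEq E]

/-- the gradient along `e`, zero if `e` touches `S` -/
def gS (s t : E → V) (S : Finset V) (h : V → ℤ) (e : E) : ℤ :=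
  if s e ∈ S ∨ t e ∈ S then 0 else h (t e) - h (s e)

omit [DecidableEq E] [Fintype V] in
theorem path_bd {s t : E → V} {S : Finset V} {x y : V}
    (h : Relation.ReflTransGen (adjS s t S) x y) :
    ∃ n : ℕ, ∀ h : V → ℤ, |h y - h x| ≤ n * ∑ e, |gS s t S h e| := by
  induction h with
  | refl => exact ⟨0, fun h => by simp⟩
  | tail _ hbc ih =>
      obtain ⟨n, hn⟩ := ih
      refine ⟨n + 1, fun h => ?_⟩
      rename_i b c _
      obtain ⟨hb, hc, e, he⟩ := hbc
      have h1 : |h c - h b| ≤ |gS s t S h e| := by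
        unfold gS
        rcases he with ⟨h2, h3⟩ | ⟨h2, h3⟩
        · rw [h2, h3, if_neg (by tauto)]
        · rw [h2, h3, if_neg (by tauto), abs_sub_comm]
      have h4 : |gS s t S h e| ≤ ∑ e, |gS s t S h e| :=
        Finset.single_le_sum (f := fun e => |gS s t S h e|) (fun _ _ => abs_nonneg _)
          (Finset.mem_univ e)
      have h5 := hn h
      have h6 : |h c - h x| ≤ |h b - h x| + |h c - h b| := by
        have := abs_add_le (h b - h x) (h c - h b)
        rw [show h b - h x + (h c - h b) = h c - h x by ring] at this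
        exact this
      push_cast
      linarith

omit [DecidableEq E] in
theorem hgt_bd {s t : E → V} {om op : V} {S : Finset V} (hj : Joined s t om op S) :
    ∃ N : ℕ, ∀ h : V → ℤ, (∀ v ∈ S, h v = 0) → ∀ v,
      |h v| ≤ |h om| + |h op| + N * ∑ e, |gS s t S h e| := by
  have h1 : ∀ v, ∃ n : ℕ, ∀ h : V → ℤ, (∀ v ∈ S, h v = 0) →
      |h v| ≤ |h om| + |h op| + n * ∑ e, |gS s t S h e| := by
    intro v
    by_cases hv : v ∈ S
    · refine ⟨0, fun h hS => ?_⟩
      rw [hS v hv]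
      simp
      positivity
    · rcases hj.2.2 v hv with h2 | h2
      · obtain ⟨n, hn⟩ := path_bd h2
        refine ⟨n, fun h _ => ?_⟩
        have h3 := hn h
        have h4 := abs_add_le (h om) (h v - h om)
        rw [add_sub_cancel] at h4
        have h5 := abs_nonneg (h op)
        linarith
      · obtain ⟨n, hn⟩ := path_bd h2
        refine ⟨n, fun h _ => ?_⟩
        have h3 := hn h
        have h4 := abs_add_le (h op) (h v - h op)
        rw [add_sub_cancel] at h4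
        have h5 := abs_nonneg (h om)
        linarith
  choose n hn using h1
  refine ⟨∑ v, n v, fun h hS v => (hn v h hS).trans ?_⟩
  have h2 : n v ≤ ∑ v, n v := Finset.single_le_sum (fun _ _ => Nat.zero_le _) (Finset.mem_univ v)
  have h3 : 0 ≤ ∑ e, |gS s t S h e| := Finset.sum_nonneg fun _ _ => abs_nonneg _
  have h4 : ((n v : ℕ) : ℤ) ≤ ((∑ v, n v : ℕ) : ℤ) := by exact_mod_cast h2
  have h5 := mul_le_mul_of_nonneg_right h4 h3
  linarith

/-- the observable `F` grows at most exponentially on `Q` -/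
def ExpBd (Q : (V → ℤ) → Prop) (F : (V → ℤ) → ℝ) : Prop :=
  ∃ C c : ℝ, ∀ h, Q h → |F h| ≤ C * Real.exp (c * ∑ v, |(h v : ℝ)|)


/-! ### observables of exponential growth -/

omit [DecidableEq V] in
theorem ExpBd.const (Q : (V → ℤ) → Prop) (a : ℝ) : ExpBd Q (fun _ => a) :=
  ⟨|a|, 0, fun h _ => by simp⟩

omit [DecidableEq V] in
theorem ExpBd.mul {Q : (V → ℤ) → Prop} {F G : (V → ℤ) → ℝ} (hF : ExpBd Q F) (hG : ExpBd Q G) :
    ExpBd Q (fun h => F h * G h) := by
  obtain ⟨C, c, hC⟩ := hF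
  obtain ⟨D, d, hD⟩ := hG
  refine ⟨C * D, c + d, fun h hq => ?_⟩
  have h1 := hC h hq
  have h2 := hD h hq
  have h3 : 0 ≤ C * Real.exp (c * ∑ v, |(h v : ℝ)|) := (abs_nonneg _).trans h1
  rw [abs_mul, add_mul, Real.exp_add]
  calc |F h| * |G h| ≤ (C * Real.exp (c * ∑ v, |(h v : ℝ)|)) *
        (D * Real.exp (d * ∑ v, |(h v : ℝ)|)) := mul_le_mul h1 h2 (abs_nonneg _) h3
    _ = _ := by ring

omit [DecidableEq V] in
theorem ExpBd.of_le {Q : (V → ℤ) → Prop} {F G : (V → ℤ) → ℝ} (hG : ExpBd Q G)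
    (h : ∀ x, Q x → |F x| ≤ |G x|) : ExpBd Q F := by
  obtain ⟨C, c, hC⟩ := hG
  exact ⟨C, c, fun x hx => (h x hx).trans (hC x hx)⟩

omit [DecidableEq V] in
theorem ExpBd.add {Q : (V → ℤ) → Prop} {F G : (V → ℤ) → ℝ} (hF : ExpBd Q F) (hG : ExpBd Q G) :
    ExpBd Q (fun h => F h + G h) := by
  obtain ⟨C, c, hC⟩ := hF
  obtain ⟨D, d, hD⟩ := hG
  refine ⟨|C| + |D|, max c d, fun h hq => ?_⟩
  have h0 : 0 ≤ ∑ v, |(h v : ℝ)| := Finset.sum_nonneg fun _ _ => abs_nonneg _
  have h1 : |F h| ≤ |C| * Real.exp (max c d * ∑ v, |(h v : ℝ)|) :=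
    (hC h hq).trans (mul_le_mul (le_abs_self C) (Real.exp_le_exp.2
      (mul_le_mul_of_nonneg_right (le_max_left _ _) h0)) (Real.exp_pos _).le (abs_nonneg _))
  have h2 : |G h| ≤ |D| * Real.exp (max c d * ∑ v, |(h v : ℝ)|) :=
    (hD h hq).trans (mul_le_mul (le_abs_self D) (Real.exp_le_exp.2
      (mul_le_mul_of_nonneg_right (le_max_right _ _) h0)) (Real.exp_pos _).le (abs_nonneg _))
  rw [add_mul]
  exact (abs_add_le _ _).trans (add_le_add h1 h2)

omit [DecidableEq V] in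
open Classical in
theorem ExpBd.ite {Q : (V → ℤ) → Prop} {F : (V → ℤ) → ℝ} (hF : ExpBd Q F) (p : (V → ℤ) → Prop) :
    ExpBd Q (fun h => if p h then F h else 0) :=
  hF.of_le fun x _ => by
    by_cases h : p x
    · rw [if_pos h]
    · rw [if_neg h, abs_zero]
      exact abs_nonneg _

omit [DecidableEq V] in
theorem ExpBd.exp_lin (Q : (V → ℤ) → Prop) (ρ : V → ℝ) :
    ExpBd Q (fun h => Real.exp (∑ v, ρ v * (h v : ℝ))) := by
  refine ⟨1, ∑ v, |ρ v|, fun h _ => ?_⟩
  rw [abs_of_pos (Real.exp_pos _), one_mul]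
  refine Real.exp_le_exp.2 ?_
  rw [Finset.sum_mul]
  refine Finset.sum_le_sum fun v _ => ?_
  have h1 : |(h v : ℝ)| ≤ ∑ v, |(h v : ℝ)| :=
    Finset.single_le_sum (f := fun v => |(h v : ℝ)|) (fun _ _ => abs_nonneg _)
      (Finset.mem_univ v)
  calc ρ v * (h v : ℝ) ≤ |ρ v * (h v : ℝ)| := le_abs_self _
    _ = |ρ v| * |(h v : ℝ)| := abs_mul _ _
    _ ≤ |ρ v| * ∑ v, |(h v : ℝ)| := mul_le_mul_of_nonneg_left h1 (abs_nonneg _)

omit [DecidableEq V] in
theorem ExpBd.lin (Q : (V → ℤ) → Prop) (ρ : V → ℝ) :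
    ExpBd Q (fun h => ∑ v, ρ v * (h v : ℝ)) := by
  refine ⟨1, ∑ v, |ρ v|, fun h _ => ?_⟩
  rw [one_mul]
  have h1 : |∑ v, ρ v * (h v : ℝ)| ≤ (∑ v, |ρ v|) * ∑ v, |(h v : ℝ)| := by
    rw [Finset.sum_mul]
    refine (Finset.abs_sum_le_sum_abs _ _).trans (Finset.sum_le_sum fun v _ => ?_)
    rw [abs_mul]
    exact mul_le_mul_of_nonneg_left (Finset.single_le_sum (f := fun v => |(h v : ℝ)|)
      (fun _ _ => abs_nonneg _) (Finset.mem_univ v)) (abs_nonneg _)
  have h2 := Real.add_one_le_exp ((∑ v, |ρ v|) * ∑ v, |(h v : ℝ)|)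
  linarith

omit [DecidableEq V] in
theorem ExpBd.pow {Q : (V → ℤ) → Prop} {F : (V → ℤ) → ℝ} (hF : ExpBd Q F) (n : ℕ) :
    ExpBd Q (fun h => F h ^ n) := by
  induction n with
  | zero => simpa using ExpBd.const Q 1
  | succ n ih =>
      refine (ih.mul hF).of_le fun x _ => ?_
      rw [pow_succ]

omit [DecidableEq E] in
theorem exp_bd {s t : E → V} {om op : V} {S : Finset V} (hj : Joined s t om op S) (j : ℤ)
    {Q : (V → ℤ) → Prop} (hQ : ∀ h, Q h → h om = 0 ∧ h op = j ∧ ∀ v ∈ S, h v = 0)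
    {F : (V → ℤ) → ℝ} (hF : ExpBd Q F) :
    ∃ C ρ : ℝ, 0 ≤ C ∧ 1 ≤ ρ ∧ ∀ h, Q h → |F h| ≤ C * ∏ e, ρ ^ (gS s t S h e).natAbs := by
  obtain ⟨C, c, hC⟩ := hF
  obtain ⟨N, hN⟩ := hgt_bd hj
  set c' : ℝ := |c| * (Fintype.card V * N) with hc'
  have hc0 : 0 ≤ c' := by positivity
  refine ⟨|C| * Real.exp (|c| * (Fintype.card V * |(j : ℝ)|)), Real.exp c', by positivity,
    Real.one_le_exp hc0, fun h hq => (hC h hq).trans ?_⟩
  obtain ⟨h1, h2, h3⟩ := hQ h hq
  have h4 : ∀ v, |(h v : ℝ)| ≤ |(j : ℝ)| + N * ∑ e, |(gS s t S h e : ℝ)| := by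
    intro v
    have h5 := hN h h3 v
    rw [h1, h2, abs_zero, zero_add] at h5
    have h6 : ((|h v| : ℤ) : ℝ) ≤ ((|j| + N * ∑ e, |gS s t S h e| : ℤ) : ℝ) := by exact_mod_cast h5
    push_cast at h6
    exact h6
  have h5 : ∑ v, |(h v : ℝ)| ≤ Fintype.card V * (|(j : ℝ)| + N * ∑ e, |(gS s t S h e : ℝ)|) := by
    refine (Finset.sum_le_sum fun v _ => h4 v).trans ?_
    rw [Finset.sum_const, Finset.card_univ, nsmul_eq_mul]
  have h6 : ∏ e, (Real.exp c') ^ (gS s t S h e).natAbs =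
      Real.exp (c' * ∑ e, |(gS s t S h e : ℝ)|) := by
    rw [Finset.mul_sum, Real.exp_sum]
    refine Finset.prod_congr rfl fun e _ => ?_
    rw [← Real.exp_nat_mul]
    congr 1
    have : ((gS s t S h e).natAbs : ℝ) = |(gS s t S h e : ℝ)| := by
      rw [← Int.cast_abs, Int.abs_eq_natAbs]; simp
    rw [this]; ring
  rw [h6, mul_assoc, ← Real.exp_add]
  have h7 : c * ∑ v, |(h v : ℝ)| ≤
      |c| * (Fintype.card V * |(j : ℝ)|) + c' * ∑ e, |(gS s t S h e : ℝ)| := by
    have h8 : c * ∑ v, |(h v : ℝ)| ≤ |c| * ∑ v, |(h v : ℝ)| :=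
      mul_le_mul_of_nonneg_right (le_abs_self c) (Finset.sum_nonneg fun _ _ => abs_nonneg _)
    have h9 := mul_le_mul_of_nonneg_left h5 (abs_nonneg c)
    rw [hc']
    nlinarith
  exact mul_le_mul (le_abs_self C) (Real.exp_le_exp.2 h7) (Real.exp_pos _).le (abs_nonneg C)

omit [DecidableEq E] [Fintype V] in
theorem wS_mul_rho {s t : E → V} {S : Finset V} (w : E → ℤ → ℝ) (ρ : ℝ) (h : V → ℤ) :
    wS s t w S h * ∏ e, ρ ^ (gS s t S h e).natAbs =
      wS s t (fun e n => w e n * ρ ^ n.natAbs) S h := by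
  unfold wS gS
  rw [← Finset.prod_mul_distrib]
  refine Finset.prod_congr rfl fun e _ => ?_
  split_ifs
  · simp
  · rfl

omit [DecidableEq E] in
/-- summability of tilted sums, any kernels with exponential moments -/
theorem summable_tilt {s t : E → V} {om op : V} {S : Finset V} {w : E → ℤ → ℝ}
    (hw : ∀ ρ : ℝ, 1 ≤ ρ → ∀ e, Summable fun n : ℤ => |w e n * ρ ^ n.natAbs|)
    (hj : Joined s t om op S) (j : ℤ)
    {Q : (V → ℤ) → Prop} (hQ : ∀ h, Q h → h om = 0 ∧ h op = j ∧ ∀ v ∈ S, h v = 0)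
    {F : (V → ℤ) → ℝ} (hF : ExpBd Q F) :
    Summable fun h : {h : V → ℤ // Q h} => |F h.1 * wS s t w S h.1| := by
  obtain ⟨C, ρ, hC0, hρ, hC⟩ := exp_bd hj j hQ hF
  have hs := summable_wS (s := s) (t := t) (om := om) (op := op) (S := S)
    (w := fun e n => w e n * ρ ^ n.natAbs) (fun e => hw ρ hρ e) hj j
  have hs2 : Summable fun h : {h : V → ℤ // Q h} =>
      |wS s t (fun e n => w e n * ρ ^ n.natAbs) S h.1| := by
    have hinj : Function.Injective (fun h : {h : V → ℤ // Q h} =>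
        (⟨h.1, hQ h.1 h.2⟩ : {h : V → ℤ // h om = 0 ∧ h op = j ∧ ∀ v ∈ S, h v = 0})) := by
      intro a b hab
      have := congrArg Subtype.val hab
      exact Subtype.ext this
    refine (hs.comp_injective hinj).congr fun h => ?_
    rfl
  refine Summable.of_nonneg_of_le (fun _ => abs_nonneg _) (fun h => ?_) (hs2.mul_left C)
  rw [← wS_mul_rho, abs_mul, abs_mul]
  have h1 : 0 ≤ ∏ e, ρ ^ (gS s t S h.1 e).natAbs :=
    Finset.prod_nonneg fun e _ => pow_nonneg (by linarith) _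
  rw [abs_of_nonneg h1]
  have h2 := mul_le_mul_of_nonneg_right (hC h.1 h.2) (abs_nonneg (wS s t w S h.1))
  calc |F h.1| * |wS s t w S h.1| ≤ _ := h2
    _ = _ := by ring

omit [DecidableEq E] in
/-- **the limit `m → ∞` with an exponentially growing observable** -/
theorem lim_tilt {s t : E → V} {J : E → ℝ} {om op : V} (hJ : ∀ e, 0 ≤ J e) {S : Finset V}
    (hj : Joined s t om op S) (j : ℤ) (Q : (V → ℤ) → Prop)
    (hQ : ∀ h, Q h → h om = 0 ∧ h op = j ∧ ∀ v ∈ S, h v = 0)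
    (F : (V → ℤ) → ℝ) (hF : ExpBd Q F) :
    Tendsto (fun m : ℕ => ∑' h : {h : V → ℤ // Q h},
      F h.1 * wS s t (fun e => kerP (J e / (2 * m)) m) S h.1) atTop
      (𝓝 (∑' h : {h : V → ℤ // Q h}, F h.1 * wS s t (fun e => wI (J e)) S h.1)) := by
  have hJ' : ∀ e n, 0 ≤ Real.exp (J e) * wI (J e) n := fun e n =>
    mul_nonneg (Real.exp_pos _).le (wI_nonneg (hJ e) n)
  have hs2 := summable_tilt (s := s) (t := t) (om := om) (op := op) (S := S)
    (w := fun e n => Real.exp (J e) * wI (J e) n) (Q := Q) (F := F)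
    (fun ρ hρ e => by
      have := (H934.summable_wI_w (hJ e) hρ).mul_left |Real.exp (J e)|
      refine this.congr fun n => ?_
      rw [← abs_mul, mul_assoc]) hj j hQ hF
  refine tendsto_tsum_of_dominated_convergence hs2 (fun h => ?_) ?_
  · refine Tendsto.const_mul _ ?_
    unfold wS
    refine tendsto_finsetProd _ fun e _ => ?_
    by_cases he : s e ∈ S ∨ t e ∈ S
    · simp only [he, if_true]
      exact tendsto_const_nhds
    · simp only [he, if_false]
      exact H565.kerP_lim (hJ e) _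
  · obtain ⟨N, hN⟩ := exists_nat_ge (∑ e, J e)
    filter_upwards [eventually_ge_atTop (max N 1)] with m hm h
    have h1 : 0 < m := lt_of_lt_of_le Nat.one_pos ((le_max_right N 1).trans hm)
    have h2 : ∀ e, J e ≤ m := fun e =>
      (Finset.single_le_sum (fun e _ => hJ e) (Finset.mem_univ e)).trans
        (hN.trans (by exact_mod_cast (le_max_left N 1).trans hm))
    have h3 : ∀ e n, 0 ≤ kerP (J e / (2 * m)) m n := fun e n =>
      H565.kerP_nonneg (div_nonneg (hJ e) (by positivity)) _ _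
    rw [norm_mul, Real.norm_of_nonneg (wS_nonneg h3 _), abs_mul, Real.norm_eq_abs]
    refine mul_le_mul_of_nonneg_left ?_ (abs_nonneg _)
    rw [abs_of_nonneg (wS_nonneg hJ' _)]
    unfold wS
    refine Finset.prod_le_prod (fun e _ => ?_) fun e _ => ?_
    · split_ifs
      · exact zero_le_one
      · exact h3 e _
    · split_ifs
      · exact le_rfl
      · exact H565.kerP_dom (hJ e) h1 (h2 e) _

end

end Vale.Agent.P159.T1.H669
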